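import Mathlib.Analysis.SpecialFunctions.SmoothTransition
import Mathlib.Analysis.Calculus.ContDiff.Operations
import Mathlib.Analysis.Calculus.LocalExtr.Basic
import Mathlib.Topology.Algebra.Module.FiniteDimension
import Mathlib.Data.Matrix.Mul
import Mathlib.LinearAlgebra.Matrix.DotProduct

/-!
# P299, INDEX-KIRWAN: the modified moment map

`tx y` is the isotropy algebra at `y`, `μ` the moment map. There is a smooth function `Ψ` such that
`f = Ψ (μ, q)` satisfies: wherever `f y ∈ tx y`, `f y = μ y`, and either `μ y = 0` or the derivative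
of `Ψ` vanishes at the point.
-/

open Set Filter
open scoped Topology ContDiff

noncomputable section

namespace Vale.Agent.P299.H800.Kir

variable {r : ℕ}

/-- smooth cut-off: `1` at `0`, `0` on `[1, ∞)` -/
def th (s : ℝ) : ℝ := Real.smoothTransition (1 - s)

theorem th_zero : th 0 = 1 := by unfold th; rw [sub_zero, Real.smoothTransition.one]

theorem th_nonneg (s : ℝ) : 0 ≤ th s := Real.smoothTransition.nonneg _

theorem th_le_one (s : ℝ) : th s ≤ 1 := Real.smoothTransition.le_one _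

theorem th_of_one_le {s : ℝ} (h : 1 ≤ s) : th s = 0 :=
  Real.smoothTransition.zero_of_nonpos (by linarith)

theorem th_contDiff : ContDiff ℝ ∞ th :=
  Real.smoothTransition.contDiff.comp (contDiff_const.sub contDiff_id)

theorem deriv_th_zero : deriv th 0 = 0 := by
  have h : IsLocalMax th 0 := Eventually.of_forall fun s => by
    show th s ≤ th 0
    rw [th_zero]
    exact th_le_one s
  exact h.deriv_eq_zero

theorem deriv_th_of_eq_zero {s : ℝ} (hs : th s = 0) : deriv th s = 0 := by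
  have h : IsLocalMin th s := Eventually.of_forall fun s' => by
    show th s ≤ th s'
    rw [hs]
    exact th_nonneg s'
  exact h.deriv_eq_zero

/-- the square of the euclidean distance -/
def sqd (m b : Fin r → ℝ) : ℝ := ∑ i, (m i - b i) ^ 2

theorem sqd_nonneg (m b : Fin r → ℝ) : 0 ≤ sqd m b := Finset.sum_nonneg fun _ _ => sq_nonneg _

theorem sqd_self (b : Fin r → ℝ) : sqd b b = 0 := by simp [sqd]

theorem sqd_eq_zero {m b : Fin r → ℝ} (h : sqd m b = 0) : m = b := by
  unfold sqd at h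
  rw [Finset.sum_eq_zero_iff_of_nonneg fun _ _ => sq_nonneg _] at h
  funext i
  have := h i (Finset.mem_univ i)
  have h2 := pow_eq_zero_iff (two_ne_zero) |>.1 this
  linarith

theorem sq_dist_le_sqd (m b : Fin r → ℝ) : dist m b ^ 2 ≤ sqd m b := by
  have h1 : dist m b ≤ Real.sqrt (sqd m b) := by
    refine (dist_pi_le_iff (Real.sqrt_nonneg _)).2 fun i => ?_
    rw [Real.dist_eq]
    refine Real.abs_le_sqrt ?_
    exact Finset.single_le_sum (f := fun i => (m i - b i) ^ 2) (fun _ _ => sq_nonneg _)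
      (Finset.mem_univ i)
  calc dist m b ^ 2 ≤ Real.sqrt (sqd m b) ^ 2 := by gcongr
    _ = sqd m b := Real.sq_sqrt (sqd_nonneg _ _)

theorem sqd_contDiff (b : Fin r → ℝ) : ContDiff ℝ ∞ fun m : Fin r → ℝ => sqd m b := by
  unfold sqd
  exact ContDiff.sum fun i _ => ((contDiff_apply ℝ ℝ i).sub contDiff_const).pow 2

/-- the argument of the cut-off -/
def arg (ε : ℝ) (b : Fin r → ℝ) (m : Fin r → ℝ) (p : ℝ) : ℝ := (sqd m b + p) / ε ^ 2

/-- the modified moment map -/
def psi (BB : Finset (Fin r → ℝ)) (ε : ℝ) (x : (Fin r → ℝ) × (BB → ℝ)) : Fin r → ℝ :=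
  x.1 + ∑ b : BB, th (arg ε b x.1 (x.2 b)) • ((b : Fin r → ℝ) - x.1)

theorem psi_contDiff (BB : Finset (Fin r → ℝ)) (ε : ℝ) : ContDiff ℝ ∞ (psi BB ε) := by
  unfold psi
  refine contDiff_fst.add (ContDiff.sum fun b _ => ContDiff.smul (th_contDiff.comp ?_)
    (contDiff_const.sub contDiff_fst))
  unfold arg
  refine ContDiff.div_const (ContDiff.add ((sqd_contDiff _).comp contDiff_fst) ?_) _
  exact (contDiff_apply ℝ ℝ b).comp contDiff_snd

theorem arg_lt_of_th_ne {ε : ℝ} (hε : 0 < ε) {b m : Fin r → ℝ} {p : ℝ}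
    (h : th (arg ε b m p) ≠ 0) : sqd m b + p < ε ^ 2 := by
  by_contra hcon
  refine h (th_of_one_le ?_)
  unfold arg
  rw [le_div_iff₀ (by positivity), one_mul]
  exact not_lt.1 hcon

theorem dist_lt_of_th_ne {ε : ℝ} (hε : 0 < ε) {b m : Fin r → ℝ} {p : ℝ} (hp : 0 ≤ p)
    (h : th (arg ε b m p) ≠ 0) : dist m b < ε := by
  have h1 := arg_lt_of_th_ne hε h
  have h2 := sq_dist_le_sqd m b
  have h3 : dist m b ^ 2 < ε ^ 2 := by linarith
  exact lt_of_pow_lt_pow_left₀ 2 hε.le h3

/-- the derivative of `psi` at the centre of a cut-off -/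
theorem fderiv_psi {BB : Finset (Fin r → ℝ)} {ε : ℝ} {x : (Fin r → ℝ) × (BB → ℝ)} {b₀ : BB}
    (h0 : x.1 = b₀) (hp : x.2 b₀ = 0)
    (hne : ∀ b : BB, b ≠ b₀ → th (arg ε b x.1 (x.2 b)) = 0) :
    fderiv ℝ (psi BB ε) x = 0 := by
  have hd : ∀ b : BB, DifferentiableAt ℝ (fun y : (Fin r → ℝ) × (BB → ℝ) =>
      arg ε (b : Fin r → ℝ) y.1 (y.2 b)) x := by
    intro b
    have : ContDiff ℝ ∞ fun y : (Fin r → ℝ) × (BB → ℝ) => arg ε (b : Fin r → ℝ) y.1 (y.2 b) := by
      unfold arg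
      refine ContDiff.div_const (ContDiff.add ((sqd_contDiff _).comp contDiff_fst) ?_) _
      exact (contDiff_apply ℝ ℝ b).comp contDiff_snd
    exact (this.differentiable (by simp)) x
  have hth : ∀ b : BB, HasFDerivAt (fun y : (Fin r → ℝ) × (BB → ℝ) =>
      th (arg ε (b : Fin r → ℝ) y.1 (y.2 b))) (0 : ((Fin r → ℝ) × (BB → ℝ)) →L[ℝ] ℝ) x := by
    intro b
    have h1 : deriv th (arg ε (b : Fin r → ℝ) x.1 (x.2 b)) = 0 := by
      by_cases hb : b = b₀
      · subst hb
        have : arg ε (b : Fin r → ℝ) x.1 (x.2 b) = 0 := by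
          unfold arg
          rw [h0, sqd_self, hp, add_zero, zero_div]
        rw [this, deriv_th_zero]
      · exact deriv_th_of_eq_zero (hne b hb)
    have h2 : HasDerivAt th 0 (arg ε (b : Fin r → ℝ) x.1 (x.2 b)) := by
      have := (th_contDiff.differentiable (by simp) (arg ε (b : Fin r → ℝ) x.1 (x.2 b))).hasDerivAt
      rwa [h1] at this
    have h3 := h2.comp_hasFDerivAt x (hd b).hasFDerivAt
    rwa [zero_smul] at h3
  have hfst : HasFDerivAt (fun y : (Fin r → ℝ) × (BB → ℝ) => y.1)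
      (ContinuousLinearMap.fst ℝ (Fin r → ℝ) (BB → ℝ)) x := hasFDerivAt_fst
  have hterm : ∀ b : BB, HasFDerivAt (fun y : (Fin r → ℝ) × (BB → ℝ) =>
      th (arg ε (b : Fin r → ℝ) y.1 (y.2 b)) • ((b : Fin r → ℝ) - y.1))
      (-(th (arg ε (b : Fin r → ℝ) x.1 (x.2 b)) •
        ContinuousLinearMap.fst ℝ (Fin r → ℝ) (BB → ℝ))) x := by
    intro b
    have h1 := (hth b).smul (hfst.const_sub (b : Fin r → ℝ))
    refine h1.congr_fderiv ?_
    ext y
    · simp
    · simp
  have hall : HasFDerivAt (psi BB ε) (ContinuousLinearMap.fst ℝ (Fin r → ℝ) (BB → ℝ) +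
      ∑ b : BB, -(th (arg ε (b : Fin r → ℝ) x.1 (x.2 b)) •
        ContinuousLinearMap.fst ℝ (Fin r → ℝ) (BB → ℝ))) x :=
    hfst.add (HasFDerivAt.fun_sum fun b _ => hterm b)
  rw [hall.fderiv, Finset.sum_eq_single b₀]
  · have h1 : arg ε (b₀ : Fin r → ℝ) x.1 (x.2 b₀) = 0 := by
      unfold arg
      rw [h0, sqd_self, hp, add_zero, zero_div]
    rw [h1, th_zero, one_smul, add_neg_cancel]
  · intro b _ hb
    rw [hne b hb, zero_smul, neg_zero]
  · intro h
    exact absurd (Finset.mem_univ _) h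

/-- **The modified moment map.** -/
theorem field {Z : Type*} [TopologicalSpace Z] [CompactSpace Z]
    (tx : Z → Submodule ℝ (Fin r → ℝ)) (μ : Z → Fin r → ℝ) (q : (Fin r → ℝ) → Z → ℝ)
    (h1 : (Set.range tx).Finite)
    (h3 : ∀ x, ∀ᶠ y in 𝓝 x, ∀ ξ ∈ tx y, μ y ⬝ᵥ ξ = μ x ⬝ᵥ ξ)
    (hμ : Continuous μ) (hq : ∀ b, Continuous (q b)) (hq0 : ∀ b y, 0 ≤ q b y)
    (hq1 : ∀ b y, q b y = 0 ↔ b ∈ tx y) :
    ∃ (BB : Finset (Fin r → ℝ)) (Ψ : (Fin r → ℝ) × (BB → ℝ) → (Fin r → ℝ)) (ρ : ℝ), 0 < ρ ∧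
      ContDiff ℝ ∞ Ψ ∧ (∀ b ∈ BB, b ≠ 0) ∧
      (∀ (m : Fin r → ℝ) (p : BB → ℝ), (∀ b, 0 ≤ p b) → ‖m‖ ≤ ρ → Ψ (m, p) = m) ∧
      ∀ y, Ψ (μ y, fun b => q b y) ∈ tx y → Ψ (μ y, fun b => q b y) = μ y ∧
        (μ y = 0 ∨ (μ y ∈ BB ∧ μ y ∈ tx y ∧ fderiv ℝ Ψ (μ y, fun b => q b y) = 0)) := by
  classical
  -- the set of critical values
  have hfin : {b : Fin r → ℝ | b ≠ 0 ∧ ∃ y, μ y = b ∧ b ∈ tx y}.Finite := by
    rcases isEmpty_or_nonempty Z with hZ | hZ
    · refine Set.finite_empty.subset ?_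
      rintro b ⟨-, y, -⟩
      exact (hZ.false y).elim
    obtain ⟨t, -, ht⟩ := isCompact_univ.elim_nhds_subcover
      (fun x => {y | ∀ ξ ∈ tx y, μ y ⬝ᵥ ξ = μ x ⬝ᵥ ξ}) fun x _ => h3 x
    -- for every b in the set choose x in t and y
    have h4 : ∀ b ∈ {b : Fin r → ℝ | b ≠ 0 ∧ ∃ y, μ y = b ∧ b ∈ tx y},
        ∃ c : Z × Submodule ℝ (Fin r → ℝ), c ∈ (t : Set Z) ×ˢ Set.range tx ∧ b ∈ c.2 ∧
          ∀ ξ ∈ c.2, b ⬝ᵥ ξ = μ c.1 ⬝ᵥ ξ := by
      rintro b ⟨-, y, hy, hby⟩
      obtain ⟨x, hxt, hxy⟩ := Set.mem_iUnion₂.1 (ht (mem_univ y))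
      refine ⟨(x, tx y), ⟨hxt, ⟨y, rfl⟩⟩, hby, fun ξ hξ => ?_⟩
      rw [← hy]
      exact hxy ξ hξ
    choose! c hc1 hc2 hc3 using h4
    refine Set.Finite.of_finite_image (f := c) ?_ ?_
    · refine (t.finite_toSet.prod h1).subset ?_
      rintro _ ⟨b, hb, rfl⟩
      exact hc1 b hb
    · intro b hb b' hb' hbb
      have e1 := hc2 b hb
      have e2 : b' ∈ (c b).2 := by rw [hbb]; exact hc2 b' hb'
      have e3 : (b - b') ⬝ᵥ (b - b') = 0 := by
        have e4 := hc3 b hb (b - b') ((c b).2.sub_mem e1 e2)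
        have e5 := hc3 b' hb' (b - b') (by rw [← hbb]; exact (c b).2.sub_mem e1 e2)
        rw [sub_dotProduct, e4, e5, hbb, sub_self]
      have e6 : b - b' = 0 := dotProduct_self_eq_zero.1 e3
      exact sub_eq_zero.1 e6
  set BB : Finset (Fin r → ℝ) := hfin.toFinset with hBB
  have hmem : ∀ b, b ∈ BB ↔ b ≠ 0 ∧ ∃ y, μ y = b ∧ b ∈ tx y := fun b => by
    rw [hBB, Set.Finite.mem_toFinset]; rfl
  -- the neighbourhoods
  have hnear : ∀ b : Fin r → ℝ, ∃ ε : ℝ, 0 < ε ∧ ∀ y, sqd (μ y) b + q b y < ε ^ 2 →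
      ∀ ξ ∈ tx y, μ y ⬝ᵥ ξ = b ⬝ᵥ ξ := by
    intro b
    set C : Set Z := {x | μ x = b ∧ b ∈ tx x} with hC
    set U : Set Z := interior {y | ∀ ξ ∈ tx y, μ y ⬝ᵥ ξ = b ⬝ᵥ ξ} with hU
    have hCU : C ⊆ U := by
      rintro x ⟨hx, -⟩
      rw [hU, mem_interior_iff_mem_nhds]
      have := h3 x
      rw [hx] at this
      exact this
    set g : Z → ℝ := fun y => sqd (μ y) b + q b y with hg
    have hgc : Continuous g := ((sqd_contDiff b).continuous.comp hμ).add (hq b)
    have hK : IsCompact (Uᶜ) := isOpen_interior.isClosed_compl.isCompact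
    have hpos : ∀ y ∈ Uᶜ, 0 < g y := by
      intro y hy
      have h5 : 0 ≤ g y := add_nonneg (sqd_nonneg _ _) (hq0 b y)
      refine lt_of_le_of_ne h5 fun h6 => hy (hCU ?_)
      have h7 : sqd (μ y) b = 0 := by
        have := sqd_nonneg (μ y) b
        have := hq0 b y
        simp only [hg] at h6
        linarith
      have h8 : q b y = 0 := by
        simp only [hg] at h6
        rw [h7] at h6
        linarith
      exact ⟨sqd_eq_zero h7, (hq1 b y).1 h8⟩
    rcases (Uᶜ).eq_empty_or_nonempty with hemp | hne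
    · refine ⟨1, one_pos, fun y _ => ?_⟩
      have : y ∈ U := by
        by_contra h
        exact (Set.eq_empty_iff_forall_notMem.1 hemp) y h
      exact interior_subset this
    · obtain ⟨y₀, hy₀, hmin⟩ := hK.exists_isMinOn hne hgc.continuousOn
      refine ⟨Real.sqrt (g y₀), Real.sqrt_pos.2 (hpos y₀ hy₀), fun y hy => ?_⟩
      rw [Real.sq_sqrt (hpos y₀ hy₀).le] at hy
      have : y ∈ U := by
        by_contra h
        have := hmin h
        simp only [Set.mem_ofPred_eq] at this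
        linarith
      exact interior_subset this
  choose ε₁ hε₁ hε₁' using hnear
  -- distance to the subspaces
  have hdist : ∀ (b : Fin r → ℝ) (h : Submodule ℝ (Fin r → ℝ)), ∃ δ : ℝ, 0 < δ ∧
      (b ∉ h → ∀ v ∈ h, δ ≤ dist b v) := by
    intro b h
    by_cases hb : b ∈ h
    · exact ⟨1, one_pos, fun h' => absurd hb h'⟩
    · have hcl : IsClosed (h : Set (Fin r → ℝ)) := h.closed_of_finiteDimensional
      have hpos : 0 < Metric.infDist b (h : Set (Fin r → ℝ)) :=
        (hcl.notMem_iff_infDist_pos ⟨0, h.zero_mem⟩).1 hb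
      exact ⟨_, hpos, fun _ v hv => Metric.infDist_le_dist_of_mem hv⟩
  choose δ hδ hδ' using hdist
  -- the choice of ε
  obtain ⟨ε, hε, he1, he2, he3, he4⟩ : ∃ ε : ℝ, 0 < ε ∧ (∀ b ∈ BB, ε ≤ ε₁ b) ∧
      (∀ b ∈ BB, ∀ h ∈ h1.toFinset, ε ≤ δ b h) ∧ (∀ b ∈ BB, 2 * ε ≤ ‖b‖) ∧
      (∀ b ∈ BB, ∀ b' ∈ BB, b ≠ b' → 2 * ε ≤ dist b b') := by
    have key : ∀ (S : Finset ℝ), (∀ s ∈ S, 0 < s) → ∃ ε : ℝ, 0 < ε ∧ ∀ s ∈ S, 2 * ε ≤ s := by
      intro S hS
      rcases S.eq_empty_or_nonempty with rfl | hne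
      · exact ⟨1, one_pos, fun s hs => absurd hs (Finset.notMem_empty s)⟩
      · refine ⟨S.min' hne / 2, half_pos (hS _ (S.min'_mem hne)), fun s hs => ?_⟩
        have := S.min'_le s hs
        linarith
    obtain ⟨ε, hε, h⟩ := key (BB.image ε₁ ∪ (BB ×ˢ h1.toFinset).image (fun c => δ c.1 c.2) ∪
      BB.image (fun b => ‖b‖) ∪
      ((BB ×ˢ BB).filter fun c => c.1 ≠ c.2).image (fun c => dist c.1 c.2)) (by
        intro s hs
        simp only [Finset.mem_union, Finset.mem_image, Finset.mem_product, Finset.mem_filter] at hs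
        rcases hs with ((⟨b, hb, rfl⟩ | ⟨c, hc, rfl⟩) | ⟨b, hb, rfl⟩) | ⟨c, hc, rfl⟩
        · exact hε₁ b
        · exact hδ _ _
        · exact norm_pos_iff.2 ((hmem b).1 hb).1
        · exact dist_pos.2 hc.2)
    refine ⟨ε, hε, fun b hb => ?_, fun b hb h' hh => ?_, fun b hb => ?_, fun b hb b' hb' hbb => ?_⟩
    · have := h (ε₁ b) (by
        simp only [Finset.mem_union, Finset.mem_image]
        exact Or.inl (Or.inl (Or.inl ⟨b, hb, rfl⟩)))
      linarith
    · have := h (δ b h') (by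
        simp only [Finset.mem_union, Finset.mem_image, Finset.mem_product]
        exact Or.inl (Or.inl (Or.inr ⟨(b, h'), ⟨hb, hh⟩, rfl⟩)))
      linarith
    · exact h ‖b‖ (by
        simp only [Finset.mem_union, Finset.mem_image]
        exact Or.inl (Or.inr ⟨b, hb, rfl⟩))
    · exact h (dist b b') (by
        simp only [Finset.mem_union, Finset.mem_image, Finset.mem_product, Finset.mem_filter]
        exact Or.inr ⟨(b, b'), ⟨⟨hb, hb'⟩, hbb⟩, rfl⟩)
  refine ⟨BB, psi BB ε, ε, hε, psi_contDiff BB ε, fun b hb => ((hmem b).1 hb).1, ?_, ?_⟩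
  · -- near 0 nothing is changed
    intro m p hp hm
    unfold psi
    rw [Finset.sum_eq_zero, add_zero]
    intro b _
    have : th (arg ε (b : Fin r → ℝ) m (p b)) = 0 := by
      by_contra hne
      have h4 := dist_lt_of_th_ne hε (hp b) hne
      have h5 := he3 b b.2
      have h6 : ‖(b : Fin r → ℝ)‖ ≤ ‖m‖ + dist m b := by
        have := norm_sub_norm_le (b : Fin r → ℝ) m
        rw [← dist_eq_norm, dist_comm] at this
        linarith
      linarith
    rw [this, zero_smul]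
  · intro y hy
    by_cases hall : ∀ b : BB, th (arg ε (b : Fin r → ℝ) (μ y) (q b y)) = 0
    · -- no cut-off is active
      have hpsi : psi BB ε (μ y, fun b => q b y) = μ y := by
        unfold psi
        rw [Finset.sum_eq_zero, add_zero]
        intro b _
        show th (arg ε (b : Fin r → ℝ) (μ y) (q b y)) • _ = 0
        rw [hall b, zero_smul]
      refine ⟨hpsi, Or.inl ?_⟩
      by_contra h0
      rw [hpsi] at hy
      have hb : μ y ∈ BB := (hmem _).2 ⟨h0, y, rfl, hy⟩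
      have h4 := hall ⟨μ y, hb⟩
      have h5 : arg ε (μ y) (μ y) (q (μ y) y) = 0 := by
        unfold arg
        rw [sqd_self, (hq1 (μ y) y).2 hy, add_zero, zero_div]
      simp only at h4
      rw [h5, th_zero] at h4
      exact one_ne_zero h4
    · push Not at hall
      obtain ⟨b, hb⟩ := hall
      -- the other cut-offs vanish
      have hoth : ∀ b' : BB, b' ≠ b → th (arg ε (b' : Fin r → ℝ) (μ y) (q b' y)) = 0 := by
        intro b' hbb
        by_contra hne
        have d1 := dist_lt_of_th_ne hε (hq0 b y) hb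
        have d2 := dist_lt_of_th_ne hε (hq0 b' y) hne
        have d3 := he4 b' b'.2 b b.2 (fun h => hbb (Subtype.ext h))
        have d4 : dist (b' : Fin r → ℝ) b ≤ dist (μ y) b' + dist (μ y) b := by
          rw [dist_comm (μ y) b']
          exact dist_triangle _ _ _
        linarith
      set χ : ℝ := th (arg ε (b : Fin r → ℝ) (μ y) (q b y)) with hχ
      have hpsi : psi BB ε (μ y, fun b => q b y) = μ y + χ • ((b : Fin r → ℝ) - μ y) := by
        unfold psi
        rw [Finset.sum_eq_single b]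
        · intro b' _ hbb
          show th (arg ε (b' : Fin r → ℝ) (μ y) (q b' y)) • _ = 0
          rw [hoth b' hbb, zero_smul]
        · intro h
          exact absurd (Finset.mem_univ _) h
      have hlt := arg_lt_of_th_ne hε hb
      have hdl := dist_lt_of_th_ne hε (hq0 b y) hb
      have hpair : ∀ ξ ∈ tx y, μ y ⬝ᵥ ξ = (b : Fin r → ℝ) ⬝ᵥ ξ := by
        refine hε₁' b y (hlt.trans_le ?_)
        have := he1 b b.2
        gcongr
      have hdiff : (b : Fin r → ℝ) - psi BB ε (μ y, fun b => q b y) =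
          (1 - χ) • ((b : Fin r → ℝ) - μ y) := by
        rw [hpsi, sub_smul, one_smul]
        abel
      -- `b` is in the isotropy algebra
      have hbt : (b : Fin r → ℝ) ∈ tx y := by
        by_contra hcon
        have h4 := hδ' b (tx y) hcon _ hy
        have h5 := he2 b b.2 (tx y) (h1.mem_toFinset.2 ⟨y, rfl⟩)
        rw [dist_eq_norm, hdiff, norm_smul, Real.norm_eq_abs,
          abs_of_nonneg (sub_nonneg.2 (th_le_one _))] at h4
        rw [dist_comm, dist_eq_norm] at hdl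
        have h6 : (1 - χ) * ‖(b : Fin r → ℝ) - μ y‖ ≤ 1 * ‖(b : Fin r → ℝ) - μ y‖ := by
          have := th_nonneg (arg ε (b : Fin r → ℝ) (μ y) (q b y))
          gcongr
          linarith
        linarith
      -- `μ y = b`
      have hμb : μ y = b := by
        have h4 : (1 - χ) • ((b : Fin r → ℝ) - μ y) ∈ tx y := by
          rw [← hdiff]
          exact (tx y).sub_mem hbt hy
        have h5 := hpair _ h4
        have h6 : (1 - χ) * (((b : Fin r → ℝ) - μ y) ⬝ᵥ ((b : Fin r → ℝ) - μ y)) = 0 := by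
          have : ((b : Fin r → ℝ) - μ y) ⬝ᵥ ((1 - χ) • ((b : Fin r → ℝ) - μ y)) = 0 := by
            rw [sub_dotProduct, h5, sub_self]
          rwa [dotProduct_smul, smul_eq_mul] at this
        rcases mul_eq_zero.1 h6 with h7 | h7
        · -- χ = 1
          have h8 : χ = 1 := by linarith
          have h9 : arg ε (b : Fin r → ℝ) (μ y) (q b y) ≤ 0 := by
            by_contra hcon
            have h10 : th (arg ε (b : Fin r → ℝ) (μ y) (q b y)) < 1 :=
              Real.smoothTransition.lt_one_of_lt_one (by linarith)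
            rw [← hχ, h8] at h10
            exact lt_irrefl _ h10
          have h11 : sqd (μ y) b + q b y ≤ 0 := by
            unfold arg at h9
            have hε2 : 0 < ε ^ 2 := by positivity
            by_contra hcon
            have := div_pos (not_le.1 hcon) hε2
            linarith
          have h12 := sqd_nonneg (μ y) b
          have h13 := hq0 b y
          exact sqd_eq_zero (by linarith)
        · exact (sub_eq_zero.1 (dotProduct_self_eq_zero.1 h7)).symm
      refine ⟨?_, Or.inr ⟨?_, ?_, ?_⟩⟩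
      · rw [hpsi, ← hμb, sub_self, smul_zero, add_zero]
      · rw [hμb]; exact b.2
      · rw [hμb]; exact hbt
      · exact fderiv_psi (b₀ := b) hμb ((hq1 b y).2 hbt) hoth

end Vale.Agent.P299.H800.Kir
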