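import Mathlib.Analysis.Fourier.AddCircleMulti
import Mathlib.Analysis.Calculus.ContDiff.Convolution
import Mathlib.Analysis.Calculus.ParametricIntegral
import Mathlib.Analysis.Calculus.BumpFunction.FiniteDimension
import Mathlib.MeasureTheory.Measure.Haar.OfBasis

/-!
# Averages over the torus `ℝ^r / ℤ^r`: characters, shift invariance, Fourier uniqueness, smooth
dependence on parameters
-/

open MeasureTheory Set Filter Topology Metric
open scoped ContDiff Convolution

noncomputable section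

namespace Vale.Agent.P299.H800.Kir

variable {r : ℕ}

/-- the unit cube with corner `a` -/
def cube (a : Fin r → ℝ) : Set (Fin r → ℝ) := {x | ∀ i, x i ∈ Ioc (a i) (a i + 1)}

/-- the integer vectors in `ℝ^r` -/
def zv (k : Fin r → ℤ) : Fin r → ℝ := fun i => (k i : ℝ)

/-- the linear form of the weight `κ` -/
def wt (κ : Fin r → ℤ) (t : Fin r → ℝ) : ℝ := ∑ i, (κ i : ℝ) * t i

/-- the character of the weight `κ` -/
def ch (κ : Fin r → ℤ) (t : Fin r → ℝ) : ℂ := Complex.exp ((2 * Real.pi * wt κ t : ℝ) * Complex.I)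

/-- periodic functions -/
def Per {E : Type*} (F : (Fin r → ℝ) → E) : Prop := ∀ (k : Fin r → ℤ) t, F (t + zv k) = F t

theorem wt_add (κ : Fin r → ℤ) (s t : Fin r → ℝ) : wt κ (s + t) = wt κ s + wt κ t := by
  simp only [wt, Pi.add_apply, mul_add, Finset.sum_add_distrib]

theorem wt_zero (κ : Fin r → ℤ) : wt κ (0 : Fin r → ℝ) = 0 := by simp [wt]

theorem wt_neg (κ : Fin r → ℤ) (t : Fin r → ℝ) : wt κ (-t) = -wt κ t := by
  simp [wt, Finset.sum_neg_distrib]

theorem wt_neg_left (κ : Fin r → ℤ) (t : Fin r → ℝ) : wt (-κ) t = -wt κ t := by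
  simp [wt, Finset.sum_neg_distrib]

theorem wt_add_left (κ κ' : Fin r → ℤ) (t : Fin r → ℝ) : wt (κ + κ') t = wt κ t + wt κ' t := by
  simp [wt, add_mul, Finset.sum_add_distrib]

theorem wt_smul (κ : Fin r → ℤ) (c : ℝ) (t : Fin r → ℝ) : wt κ (c • t) = c * wt κ t := by
  simp only [wt, Pi.smul_apply, smul_eq_mul, Finset.mul_sum]
  exact Finset.sum_congr rfl fun i _ => by ring

theorem ch_zero (κ : Fin r → ℤ) : ch κ (0 : Fin r → ℝ) = 1 := by simp [ch, wt_zero]

theorem ch_add (κ : Fin r → ℤ) (s t : Fin r → ℝ) : ch κ (s + t) = ch κ s * ch κ t := by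
  rw [ch, ch, ch, ← Complex.exp_add, wt_add]
  congr 1
  push_cast
  ring

theorem ch_add_left (κ κ' : Fin r → ℤ) (t : Fin r → ℝ) : ch (κ + κ') t = ch κ t * ch κ' t := by
  rw [ch, ch, ch, ← Complex.exp_add, wt_add_left]
  congr 1
  push_cast
  ring

theorem ch_zero_left (t : Fin r → ℝ) : ch (0 : Fin r → ℤ) t = 1 := by simp [ch, wt]

theorem ch_neg_mul (κ : Fin r → ℤ) (t : Fin r → ℝ) : ch (-κ) t * ch κ t = 1 := by
  rw [← ch_add_left, neg_add_cancel, ch_zero_left]

theorem ch_ne_zero (κ : Fin r → ℤ) (t : Fin r → ℝ) : ch κ t ≠ 0 := Complex.exp_ne_zero _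

theorem ch_norm (κ : Fin r → ℤ) (t : Fin r → ℝ) : ‖ch κ t‖ = 1 := Complex.norm_exp_ofReal_mul_I _

theorem ch_conj (κ : Fin r → ℤ) (t : Fin r → ℝ) : (starRingEnd ℂ) (ch κ t) = ch (-κ) t := by
  rw [ch, ch, ← Complex.exp_conj, wt_neg_left, map_mul, Complex.conj_ofReal, Complex.conj_I]
  congr 1
  push_cast
  ring

theorem ch_pow (κ : Fin r → ℤ) (t : Fin r → ℝ) (m : ℕ) : ch (m • κ) t = ch κ t ^ m := by
  induction m with
  | zero => rw [zero_smul, ch_zero_left, pow_zero]
  | succ m ih => rw [succ_nsmul, ch_add_left, ih, pow_succ]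

theorem wt_zv (κ k : Fin r → ℤ) : wt κ (zv k) = ((∑ i, κ i * k i : ℤ) : ℝ) := by
  simp [wt, zv]

theorem ch_zv (κ k : Fin r → ℤ) : ch κ (zv k) = 1 := by
  rw [ch, wt_zv, Complex.exp_eq_one_iff]
  exact ⟨∑ i, κ i * k i, by push_cast; ring⟩

theorem ch_per (κ : Fin r → ℤ) : Per (ch κ) := fun k t => by rw [ch_add, ch_zv, mul_one]

theorem ch_contDiff (κ : Fin r → ℤ) : ContDiff ℝ ∞ (ch κ) := by
  have h : ContDiff ℝ ∞ fun t : Fin r → ℝ => ((2 * Real.pi * wt κ t : ℝ) : ℂ) * Complex.I := by
    unfold wt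
    refine ContDiff.mul (Complex.ofRealCLM.contDiff.comp (contDiff_const.mul ?_)) contDiff_const
    exact ContDiff.sum fun i _ => contDiff_const.mul (contDiff_apply ℝ ℝ i)
  exact Complex.contDiff_exp.comp h

theorem ch_continuous (κ : Fin r → ℤ) : Continuous (ch κ) := (ch_contDiff κ).continuous

/-- the projection to the torus -/
def mkT (t : Fin r → ℝ) : UnitAddTorus (Fin r) := fun i => (t i : UnitAddCircle)

theorem mFourier_mkT (κ : Fin r → ℤ) (t : Fin r → ℝ) : UnitAddTorus.mFourier κ (mkT t) = ch κ t := by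
  unfold UnitAddTorus.mFourier mkT ch wt
  simp only [ContinuousMap.coe_mk, fourier_coe_apply]
  rw [← Complex.exp_sum]
  congr 1
  push_cast
  rw [Finset.mul_sum, Finset.sum_mul]
  refine Finset.sum_congr rfl fun i _ => ?_
  ring

theorem mkT_quot : IsOpenQuotientMap (mkT : (Fin r → ℝ) → UnitAddTorus (Fin r)) := by
  have h : ∀ _ : Fin r, IsOpenQuotientMap (fun x : ℝ => (x : UnitAddCircle)) := fun _ =>
    QuotientAddGroup.isOpenQuotientMap_mk
  exact IsOpenQuotientMap.piMap h

theorem mkT_eq {s t : Fin r → ℝ} (h : mkT s = mkT t) : ∃ k : Fin r → ℤ, s = t + zv k := by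
  have h1 : ∀ i, ∃ k : ℤ, s i = t i + k := by
    intro i
    have h2 : ((s i : ℝ) : UnitAddCircle) = (t i : ℝ) := congrFun h i
    have h3 : ((s i - t i : ℝ) : UnitAddCircle) = 0 := by
      rw [AddCircle.coe_sub, h2, sub_self]
    obtain ⟨k, hk⟩ := (AddCircle.coe_eq_zero_iff (1 : ℝ)).1 h3
    refine ⟨k, ?_⟩
    rw [zsmul_eq_mul, mul_one] at hk
    linarith
  choose k hk using h1
  exact ⟨k, funext hk⟩

section lift

variable {E : Type*} {F : (Fin r → ℝ) → E}

/-- a periodic function as a function on the torus -/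
def down (F : (Fin r → ℝ) → E) (τ : UnitAddTorus (Fin r)) : E :=
  F (Function.surjInv (mkT_quot (r := r)).surjective τ)

theorem down_mkT (hF : Per F) (t : Fin r → ℝ) : down F (mkT t) = F t := by
  unfold down
  obtain ⟨k, hk⟩ := mkT_eq (Function.surjInv_eq (mkT_quot (r := r)).surjective (mkT t))
  rw [hk, hF]

theorem down_continuous [TopologicalSpace E] (hF : Per F) (hc : Continuous F) :
    Continuous (down F) := by
  rw [(mkT_quot (r := r)).isQuotientMap.continuous_iff]
  have : down F ∘ mkT = F := funext fun t => down_mkT hF t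
  rw [this]
  exact hc

end lift

section integral

variable {E : Type*} [NormedAddCommGroup E] [NormedSpace ℝ E] {F : (Fin r → ℝ) → E}

theorem cube_measurable (a : Fin r → ℝ) : MeasurableSet (cube a) :=
  MeasurableSet.univ_pi' fun _ => measurableSet_Ioc

/-- the integral of a periodic function over a period -/
theorem integral_cube_eq (hF : Per F) (a b : Fin r → ℝ) :
    ∫ t in cube a, F t = ∫ t in cube b, F t := by
  have h := (UnitAddTorus.integral_preimage (down F) a).symm.trans
    (UnitAddTorus.integral_preimage (down F) b)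
  have h1 : ∀ t : Fin r → ℝ, down F (fun i => (t i : UnitAddCircle)) = F t := down_mkT hF
  simp only [h1] at h
  exact h

theorem integral_cube_shift (hF : Per F) (a s : Fin r → ℝ) :
    ∫ t in cube a, F (t + s) = ∫ t in cube a, F t := by
  rw [← integral_cube_eq hF (a + s) a, ← integral_indicator (cube_measurable a),
    ← integral_indicator (cube_measurable (a + s)),
    ← integral_add_right_eq_self (fun t => (cube (a + s)).indicator F t) s]
  refine integral_congr_ae (Eventually.of_forall fun t => ?_)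
  have h : t ∈ cube a ↔ t + s ∈ cube (a + s) := by
    unfold cube
    simp only [Set.mem_ofPred_eq, Pi.add_apply, mem_Ioc]
    refine forall_congr' fun i => ?_
    constructor
    · rintro ⟨h1, h2⟩; constructor <;> linarith
    · rintro ⟨h1, h2⟩; constructor <;> linarith
  by_cases ht : t ∈ cube a
  · simp only [indicator_of_mem ht, indicator_of_mem (h.1 ht)]
  · simp only [indicator_of_notMem ht, indicator_of_notMem (fun h' => ht (h.2 h'))]

end integral

/-- **Uniqueness of the Fourier coefficients** -/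
theorem four_unique {F : (Fin r → ℝ) → ℂ} (hF : Per F) (hc : Continuous F)
    (h0 : ∀ κ : Fin r → ℤ, ∫ t in cube (0 : Fin r → ℝ), ch (-κ) t * F t = 0) (t : Fin r → ℝ) :
    F t = 0 := by
  set G : C(UnitAddTorus (Fin r), ℂ) := ⟨down F, down_continuous hF hc⟩ with hG
  have h1 : ∀ κ, UnitAddTorus.mFourierCoeff G κ = 0 := by
    intro κ
    rw [UnitAddTorus.mFourierCoeff_eq_integral G κ 0, ← h0 κ]
    have h2 : ∀ x : Fin r → ℝ, (UnitAddTorus.mFourier (-κ)) (fun i => (x i : UnitAddCircle)) •
        G (fun i => (x i : UnitAddCircle)) = ch (-κ) x * F x := by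
      intro x
      have h3 := mFourier_mkT (-κ) x
      have h4 := down_mkT hF x
      unfold mkT at h3 h4
      rw [h3, smul_eq_mul]
      congr 1
    simp only [h2]
    rfl
  have h2 : (UnitAddTorus.mFourierCoeff G) = 0 := funext h1
  have h3 : Summable (UnitAddTorus.mFourierCoeff G) := by
    rw [h2]
    exact summable_zero
  have h4 := UnitAddTorus.hasSum_mFourier_series_apply_of_summable h3 (mkT t)
  have h5 : G (mkT t) = F t := down_mkT hF t
  rw [← h5]
  refine h4.unique ?_
  simp only [h1, zero_smul]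
  exact hasSum_zero

section param

variable {E : Type*} [NormedAddCommGroup E] [NormedSpace ℝ E]
  {E' : Type*} [NormedAddCommGroup E'] [NormedSpace ℝ E'] [CompleteSpace E']

theorem cube_subset (a : Fin r → ℝ) : cube a ⊆ Icc a (a + 1) := fun _ hx =>
  ⟨fun i => (hx i).1.le, fun i => (hx i).2⟩

theorem integral_cube_param {U : Set E} (hU : IsOpen U) {F : (Fin r → ℝ) × E → E'}
    (hF : ContDiffOn ℝ ∞ F (univ ×ˢ U)) (a : Fin r → ℝ) :
    ContDiffOn ℝ ∞ (fun z => ∫ t in cube a, F (t, z)) U := by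
  obtain ⟨R, hR⟩ := (isCompact_Icc (a := a) (b := a + 1)).isBounded.subset_closedBall 0
  obtain ⟨χ, hχ1, hχ2⟩ : ∃ χ : (Fin r → ℝ) → ℝ, ContDiff ℝ ∞ χ ∧ HasCompactSupport χ ∧
      ∀ x ∈ closedBall (0 : Fin r → ℝ) (max R 1), χ x = 1 := by
    have hpos : (0 : ℝ) < max R 1 := lt_max_of_lt_right one_pos
    let b : ContDiffBump (0 : Fin r → ℝ) := ⟨max R 1, max R 1 + 1, hpos, by linarith⟩
    exact ⟨b, b.contDiff, b.hasCompactSupport, fun x hx => b.one_of_mem_closedBall hx⟩
  obtain ⟨hχc, hχ3⟩ := hχ2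
  set f : (Fin r → ℝ) → ℝ := (cube a).indicator fun _ => 1 with hf
  have hfi : Integrable f := by
    rw [hf, integrable_indicator_iff (cube_measurable a)]
    refine integrableOn_const (hs := ?_) (hC := ?_)
    · exact ((measure_mono (cube_subset a)).trans_lt isCompact_Icc.measure_lt_top).ne
    · simp
  set g : E → (Fin r → ℝ) → E' := fun z t => χ t • F (-t, z) with hg
  have hgc : ContDiffOn ℝ ∞ (Function.uncurry g) (U ×ˢ univ) := by
    have h1 : ContDiffOn ℝ ∞ (fun q : E × (Fin r → ℝ) => F (-q.2, q.1)) (U ×ˢ univ) :=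
      hF.comp (contDiff_snd.neg.prodMk contDiff_fst).contDiffOn fun q hq => ⟨mem_univ _, hq.1⟩
    exact (hχ1.comp contDiff_snd).contDiffOn.smul h1
  have h1 := contDiffOn_convolution_right_with_param (n := (⊤ : ℕ∞)) (μ := volume)
    (ContinuousLinearMap.lsmul ℝ ℝ (E := E')) hU (k := tsupport χ) hχc
    (g := g) (fun z t _ ht => by
      rw [hg]
      simp only [image_eq_zero_of_notMem_tsupport ht, zero_smul]) hfi.locallyIntegrable hgc
  have h2 : ContDiffOn ℝ ∞ (fun z : E => (f ⋆[ContinuousLinearMap.lsmul ℝ ℝ, volume] g z) 0) U :=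
    h1.comp (contDiff_id.prodMk contDiff_const).contDiffOn fun z hz => ⟨hz, mem_univ _⟩
  refine h2.congr fun z hz => ?_
  rw [convolution_def, ← integral_indicator (cube_measurable a)]
  refine integral_congr_ae (Eventually.of_forall fun t => ?_)
  show (cube a).indicator (fun t => F (t, z)) t = f t • (χ (0 - t) • F (-(0 - t), z))
  by_cases ht : t ∈ cube a
  · have h3 : χ (0 - t) = 1 := by
      refine hχ3 _ ?_
      rw [zero_sub, mem_closedBall_zero_iff, norm_neg]
      have := hR (cube_subset a ht)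
      rw [mem_closedBall_zero_iff] at this
      exact this.trans (le_max_left _ _)
    rw [indicator_of_mem ht, hf, indicator_of_mem ht, h3, one_smul, one_smul, zero_sub, neg_neg]
  · rw [indicator_of_notMem ht, hf, indicator_of_notMem ht, zero_smul]

/-- differentiation under the integral -/
theorem hasFDerivAt_integral_cube [FiniteDimensional ℝ E] {U : Set E} (hU : IsOpen U)
    {F : (Fin r → ℝ) × E → E'}
    (hF : ContDiffOn ℝ ∞ F (univ ×ˢ U)) (a : Fin r → ℝ) {z : E} (hz : z ∈ U) :
    HasFDerivAt (fun z => ∫ t in cube a, F (t, z))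
      (∫ t in cube a, fderiv ℝ (fun y => F (t, y)) z) z := by
  have hUo : IsOpen ((univ : Set (Fin r → ℝ)) ×ˢ U) := isOpen_univ.prod hU
  obtain ⟨δ, hδ, hδU⟩ := Metric.nhds_basis_closedBall.mem_iff.1 (hU.mem_nhds hz)
  -- the partial derivative
  have hd : ∀ t, ∀ y ∈ U, HasFDerivAt (fun y => F (t, y))
      ((fderiv ℝ F (t, y)).comp (ContinuousLinearMap.inr ℝ (Fin r → ℝ) E)) y := by
    intro t y hy
    have h1 : HasFDerivAt F (fderiv ℝ F (t, y)) (t, y) :=
      ((hF.contDiffAt (hUo.mem_nhds ⟨mem_univ _, hy⟩)).differentiableAt (by simp)).hasFDerivAt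
    exact h1.comp y (hasFDerivAt_prodMk_right t y)
  have hcont : ContinuousOn (fun q : (Fin r → ℝ) × E =>
      (fderiv ℝ F q).comp (ContinuousLinearMap.inr ℝ (Fin r → ℝ) E)) (univ ×ˢ U) := by
    have h1 := hF.continuousOn_fderiv_of_isOpen hUo (by simp)
    exact ((ContinuousLinearMap.compL ℝ E ((Fin r → ℝ) × E) E').flip
      (ContinuousLinearMap.inr ℝ (Fin r → ℝ) E)).continuous.comp_continuousOn h1
  have hK : IsCompact (Icc a (a + 1) ×ˢ closedBall z δ) :=
    isCompact_Icc.prod (isCompact_closedBall z δ)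
  obtain ⟨C, hC⟩ := hK.exists_bound_of_continuousOn
    (hcont.mono (prod_mono (subset_univ _) hδU))
  have hfin : volume (cube a) < ⊤ :=
    (measure_mono (cube_subset a)).trans_lt isCompact_Icc.measure_lt_top
  have hFc : ∀ y ∈ U, Continuous fun t => F (t, y) := fun y hy =>
    hF.continuousOn.comp_continuous (by fun_prop) fun t => ⟨mem_univ _, hy⟩
  have hint : ∀ y ∈ U, IntegrableOn (fun t => F (t, y)) (cube a) := fun y hy =>
    ((hFc y hy).continuousOn.integrableOn_compact isCompact_Icc).mono_set (cube_subset a)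
  have key := hasFDerivAt_integral_of_dominated_of_fderiv_le (𝕜 := ℝ)
    (μ := volume.restrict (cube a)) (F := fun y t => F (t, y))
    (F' := fun y t => (fderiv ℝ F (t, y)).comp (ContinuousLinearMap.inr ℝ (Fin r → ℝ) E))
    (x₀ := z) (s := closedBall z δ) (bound := fun _ => C) (closedBall_mem_nhds z hδ) ?_
    (hint z hz) ?_ ?_ ?_ ?_
  · have h1 : (∫ t in cube a, fderiv ℝ (fun y => F (t, y)) z) =
        ∫ t in cube a, (fderiv ℝ F (t, z)).comp (ContinuousLinearMap.inr ℝ (Fin r → ℝ) E) :=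
      integral_congr_ae (Eventually.of_forall fun t => (hd t z hz).fderiv)
    rw [h1]
    exact key
  · filter_upwards [hU.mem_nhds hz] with y hy
    exact (hint y hy).aestronglyMeasurable
  · have h1 : Continuous fun t => (fderiv ℝ F (t, z)).comp
        (ContinuousLinearMap.inr ℝ (Fin r → ℝ) E) :=
      hcont.comp_continuous (f := fun t : Fin r → ℝ => (t, z)) (by fun_prop)
        fun t => ⟨mem_univ _, hz⟩
    exact ((h1.continuousOn.integrableOn_compact isCompact_Icc).mono_set
      (cube_subset a)).aestronglyMeasurable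
  · refine (ae_restrict_mem (cube_measurable a)).mono fun t ht y hy => ?_
    exact hC (t, y) ⟨cube_subset a ht, hy⟩
  · exact integrableOn_const hfin.ne
  · exact Eventually.of_forall fun t y hy => hd t y (hδU hy)

end param

end Vale.Agent.P299.H800.Kir
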